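import Vale.Agent.P162.KL.Assemble

/-!
# P162 : `assemble` for a general window `[r M, (1 - r) M]`, general `kap`, general `c`
-/

namespace Vale.Agent.P162.KL

theorem assemble_gen (r kap c : ℝ) (hr0 : 0 < r) (hr1 : r ≤ 1 / 2) (hkap : 1 ≤ kap)
    (hc : kap * Real.log (1 / r) < c * Real.log 2)
    (PZ PT : ℕ → ℝ → Prop)
    (monoZ : ∀ M e e', PZ M e → e ≤ e' → PZ M e')
    (closedZ : ∀ M e, (∀ e', e < e' → PZ M e') → PZ M e)
    (monoT : ∀ M e e', PT M e → e ≤ e' → PT M e')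
    (closedT : ∀ M e, (∀ e', e < e' → PT M e') → PT M e)
    (trivZ : ∀ M, PZ M 1) (trivT : ∀ M, PT M (1 / 2))
    (K : ℝ) (hK : 0 ≤ K) (M1 : ℕ) (hKM : K < M1)
    (stepZ : ∀ M : ℕ, M1 ≤ M → ∀ g : ℝ, 0 ≤ g →
      (∀ n : ℕ, r * M ≤ n → (n : ℝ) ≤ (1 - r) * M → PZ n g) →
        PZ M ((1 + K / M) * (g + K / M) / (1 - K / M + g)))
    (stepT : ∀ M : ℕ, M1 ≤ M → ∀ zt sg : ℝ, 0 ≤ zt → 0 ≤ sg → PZ M zt →
      (∀ n : ℕ, r * M ≤ n → (n : ℝ) ≤ (1 - r) * M → PT n sg) →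
        PT M ((kap * zt + sg + K / M) / 2)) :
    ∃ j0 : ℕ, ∀ j : ℕ, j0 ≤ j → PT (2 ^ j) (c / ((j : ℝ) + 1)) := by
  have hkap0 : 0 ≤ kap := by linarith
  obtain ⟨z, hz⟩ : ∃ z : ℕ → ℝ, z = fun M => bestOf (PZ M) := ⟨_, rfl⟩
  obtain ⟨s, hs⟩ : ∃ s : ℕ → ℝ, s = fun M => bestOf (PT M) := ⟨_, rfl⟩
  have hz0 : ∀ M, 0 ≤ z M := fun M => by
    rw [hz]; exact bestOf_nonneg (PZ M) 1 zero_le_one (trivZ M)
  have hz1 : ∀ M, z M ≤ 1 := fun M => by
    rw [hz]; exact bestOf_le (PZ M) 1 zero_le_one (trivZ M)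
  have hzP : ∀ M, PZ M (z M) := fun M => by
    rw [hz]; exact bestOf_spec (PZ M) (monoZ M) (closedZ M) 1 zero_le_one (trivZ M)
  have hs0 : ∀ M, 0 ≤ s M := fun M => by
    rw [hs]; exact bestOf_nonneg (PT M) (1 / 2) (by norm_num) (trivT M)
  have hs1 : ∀ M, s M ≤ 1 / 2 := fun M => by
    rw [hs]; exact bestOf_le (PT M) (1 / 2) (by norm_num) (trivT M)
  have hsP : ∀ M, PT M (s M) := fun M => by
    rw [hs]; exact bestOf_spec (PT M) (monoT M) (closedT M) (1 / 2) (by norm_num) (trivT M)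
  have hzle : ∀ M c, 0 ≤ c → PZ M c → z M ≤ c := fun M c hc0 hc => by
    rw [hz]; exact bestOf_le (PZ M) c hc0 hc
  have hsle : ∀ M c, 0 ≤ c → PT M c → s M ≤ c := fun M c hc0 hc => by
    rw [hs]; exact bestOf_le (PT M) c hc0 hc
  have hZ : ∀ M : ℕ, M1 ≤ M → ∀ g : ℝ, 0 ≤ g →
      (∀ n : ℕ, r * M ≤ n → (n : ℝ) ≤ (1 - r) * M → z n ≤ g) →
      z M * (1 - K / M + g) ≤ (1 + K / M) * (g + K / M) := by
    intro M hM g hg hwin
    have hM1R : (M1 : ℝ) ≤ M := by exact_mod_cast hM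
    have hMpos : (0 : ℝ) < M := by linarith
    have he0 : 0 ≤ K / M := by positivity
    have he1 : K / M < 1 := by rw [div_lt_one hMpos]; linarith
    have hden : 0 < 1 - K / M + g := by linarith
    have h1 := stepZ M hM g hg (fun n h1 h2 => monoZ n _ _ (hzP n) (hwin n h1 h2))
    have h2 := hzle M _ (by positivity) h1
    rwa [le_div_iff₀ hden] at h2
  have hT : ∀ M : ℕ, M1 ≤ M → ∀ sg : ℝ, 0 ≤ sg →
      (∀ n : ℕ, r * M ≤ n → (n : ℝ) ≤ (1 - r) * M → s n ≤ sg) →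
      2 * s M ≤ kap * z M + sg + K / M := by
    intro M hM sg hsg hwin
    have hM1R : (M1 : ℝ) ≤ M := by exact_mod_cast hM
    have hMpos : (0 : ℝ) < M := by linarith
    have he0 : 0 ≤ K / M := by positivity
    have h1 := stepT M hM (z M) sg (hz0 M) hsg (hzP M)
      (fun n h1 h2 => monoT n _ _ (hsP n) (hwin n h1 h2))
    have h2 := hsle M _ (by have := hz0 M; positivity) h1
    linarith
  obtain ⟨j0, _, hj0⟩ := Vale.Agent.P162.harmonic_main r K kap c M1 hr0 hr1 hK hkap z s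
    hz0 hz1 hs0 hs1 hZ hT hc
  refine ⟨j0, fun j hj => monoT _ _ _ (hsP (2 ^ j)) ?_⟩
  have h := hj0 (j + 1) (by omega)
  rw [Nat.add_sub_cancel] at h
  push_cast at h
  exact h

/-- for every `c > 1` there is a window parameter `r < 1/2` with
`exp ((1 - 2 r)^2 / (2 r)) * log (1 / r) < c * log 2` -/
theorem exists_window (c : ℝ) (hc : 1 < c) :
    ∃ r : ℝ, 0 < r ∧ r < 1 / 2 ∧
      Real.exp ((1 - 2 * r) ^ 2 / (2 * r)) * Real.log (1 / r) < c * Real.log 2 := by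
  -- continuity at r = 1/2
  have hcont : ContinuousAt
      (fun r : ℝ => Real.exp ((1 - 2 * r) ^ 2 / (2 * r)) * Real.log (1 / r)) (1 / 2) := by
    apply ContinuousAt.mul
    · apply Real.continuous_exp.continuousAt.comp
      apply ContinuousAt.div
      · fun_prop
      · fun_prop
      · norm_num
    · apply ContinuousAt.log
      · apply ContinuousAt.div
        · fun_prop
        · fun_prop
        · norm_num
      · norm_num
  have hval : (fun r : ℝ => Real.exp ((1 - 2 * r) ^ 2 / (2 * r)) * Real.log (1 / r)) (1 / 2)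
      = Real.log 2 := by
    norm_num
  have hlog2 : 0 < Real.log 2 := Real.log_pos (by norm_num)
  have hlt : (fun r : ℝ => Real.exp ((1 - 2 * r) ^ 2 / (2 * r)) * Real.log (1 / r)) (1 / 2)
      < c * Real.log 2 := by
    rw [hval]; nlinarith
  have hev := hcont.eventually (gt_mem_nhds hlt)
  rw [Metric.eventually_nhds_iff] at hev
  obtain ⟨ε, hε, hball⟩ := hev
  refine ⟨1 / 2 - min (ε / 2) (1 / 4), ?_, ?_, ?_⟩
  · have := min_le_right (ε / 2) (1 / 4 : ℝ)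
    linarith
  · have : 0 < min (ε / 2) (1 / 4 : ℝ) := lt_min (by positivity) (by norm_num)
    linarith
  · apply hball
    rw [Real.dist_eq]
    have h1 : 0 < min (ε / 2) (1 / 4 : ℝ) := lt_min (by positivity) (by norm_num)
    have h2 := min_le_left (ε / 2) (1 / 4 : ℝ)
    rw [abs_lt]
    constructor <;> linarith

end Vale.Agent.P162.KL
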