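import Vale.Agent.P162.Top.OneStep
import Vale.Agent.P162.Top.SrBasic
import Vale.Agent.P162.Top.Start
import Vale.Agent.P162.Top.ConvComm
import Vale.Agent.P162.Top.ExpDecay
import Vale.Agent.P162.Top.Tv
import Vale.Agent.P162.Pot

/-!
# P162 : TOP half with a general exponent
If the new-bit channel of `2 * 2 ^ j` cards contracts with constant `c / (j + 1)` for large `j`, then
the Thorp shuffle of `2 ^ (k + 1)` cards mixes in `C (k + 1) ^ (gam + 1)` steps, for every `gam > c`,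
`1 < gam ≤ 2`.
-/

namespace Vale.Agent.P162.Top

open Finset Real Vale.Agent.P162 Vale.Agent.P162.KL

theorem top_gen (c gam : ℝ) (hc0 : 0 ≤ c) (hc : c < gam) (hg1 : 1 < gam) (hg2 : gam ≤ 2)
    (hA : ∀ M : ℕ, 1 ≤ M → SDPI (bitChan M) (1 / 2))
    (hB : ∃ j0 : ℕ, ∀ j : ℕ, j0 ≤ j → SDPI (bitChan (2 ^ j)) (c / ((j : ℝ) + 1))) :
    ∃ C : ℝ, ∀ k t : ℕ, C * ((k : ℝ) + 1) ^ (gam + 1) ≤ t →
      tvUnif (thorpPow (2 ^ k) t) ≤ 1 / 4 := by
  obtain ⟨j0, hj0⟩ := hB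
  obtain ⟨C, _, hpot⟩ := pot c gam hc0 hc hg1 hg2 (j0 + 1)
  refine ⟨C, fun k t ht => ?_⟩
  obtain ⟨s, hs⟩ : ∃ s : ℕ → ℝ,
      s = fun j => if j0 + 1 ≤ j then min (1 / 2) (c / (j : ℝ)) else 1 / 2 := ⟨_, rfl⟩
  obtain ⟨S, hS⟩ : ∃ S : ℕ → ℕ → ℝ,
      S = fun t i => Sr k (k + 1 - i) (thorpPow (2 ^ k) t) := ⟨_, rfl⟩
  have hs01 : ∀ j, 0 ≤ s j ∧ s j ≤ 1 / 2 := by
    intro j
    rw [hs]
    simp only []
    split_ifs with h
    · refine ⟨le_min (by norm_num) (by positivity), min_le_left _ _⟩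
    · norm_num
  have hsc : ∀ j : ℕ, j0 + 1 ≤ j → s j ≤ c / (j : ℝ) := by
    intro j hj
    rw [hs]
    simp only []
    rw [if_pos hj]
    exact min_le_right _ _
  have hsd : ∀ i : ℕ, SDPI (bitChan (2 ^ i)) (s (i + 1)) := by
    intro i
    rw [hs]
    simp only []
    split_ifs with h
    · rcases le_total (1 / 2 : ℝ) (c / ((i + 1 : ℕ) : ℝ)) with h1 | h1
      · rw [min_eq_left h1]
        exact hA _ Nat.one_le_two_pow
      · rw [min_eq_right h1]
        have := hj0 i (by omega)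
        push_cast
        exact this
    · exact hA _ Nat.one_le_two_pow
  have hS0 : ∀ t i, 0 ≤ S t i := by
    intro t i
    rw [hS]
    exact Sr_nonneg _ _ _ (isLaw_thorpPow _ t)
  have hSd : ∀ t, S t (k + 1) = 0 := by
    intro t
    rw [hS]
    simp only [Nat.sub_self]
    exact Sr_zero k _ (isLaw_thorpPow _ t)
  have hrec : ∀ t i, i < k + 1 →
      S (t + 1) i ≤ (1 - s (i + 1)) * S t (i + 1) + s (i + 1) * S t 0 := by
    intro t i hi
    have hik : i ≤ k := by omega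
    rw [hS]
    simp only []
    have h1 := one_step k (k - i) (Nat.sub_le k i) (s (i + 1))
      (by rw [Nat.sub_sub_self hik]; exact hsd i) _ (isLaw_thorpPow (2 ^ k) t)
    have e1 : k - i + 1 = k + 1 - i := by omega
    have e2 : k + 1 - (i + 1) = k - i := by omega
    rw [e1, ← thorpPow_succ'] at h1
    rw [e2, Nat.sub_zero, Sr_top]
    exact h1
  have hB0 : ∀ i, S 0 i ≤ 4 ^ (k + 1) := by
    intro i
    rw [hS]
    simp only []
    calc Sr k (k + 1 - i) (thorpPow (2 ^ k) 0) ≤ Sr k (k + 1) (thorpPow (2 ^ k) 0) :=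
          Sr_mono k (Nat.sub_le _ _) _ (isLaw_thorpPow _ 0)
      _ = kl (thorpPow (2 ^ k) 0) (unif (G k)) := Sr_top k _
      _ = Real.log ((2 * 2 ^ k).factorial : ℝ) := kl_thorpPow_zero k
      _ ≤ 4 ^ (k + 1) := log_factorial_le k
  have hfin := hpot (k + 1) s S (by omega) hs01 hsc hS0 hSd hrec hB0 t
    (by push_cast; exact ht)
  rw [hS] at hfin
  simp only [Nat.sub_zero] at hfin
  rw [Sr_top] at hfin
  exact tv_le_of_kl _ (isLaw_thorpPow (2 ^ k) t) hfin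

end Vale.Agent.P162.Top
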