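import Vale.Agent.P162.Eps.StepZ
import Vale.Agent.P162.Eps.AssembleGen
import Vale.Agent.P162.Eps.TopGen
import Vale.Agent.P162.P2.Wrap4

/-!
# P162 : the Thorp shuffle of `2 ^ d` cards mixes in `C_ε d ^ (2 + ε)` steps, for every `ε > 0`
-/

namespace Vale.Agent.P162.P2

open Finset Vale.Agent.P162 Vale.Agent.P162.KL

/-- for every `c > 1` the transversal channel on `2 * 2 ^ j` points contracts with constant
`c / (j + 1)` for all large `j` -/
theorem TS_harmonic (c : ℝ) (hc : 1 < c) :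
    ∃ j0 : ℕ, ∀ j : ℕ, j0 ≤ j → TS (2 ^ j) (c / ((j : ℝ) + 1)) := by
  obtain ⟨r, hr0, hr1, hwin⟩ := exists_window c hc
  have hdl : 0 < 1 / 2 - r := by linarith
  obtain ⟨kap, hkap⟩ : ∃ kap, kap = Real.exp ((1 - 2 * r) ^ 2 / (2 * r)) := ⟨_, rfl⟩
  have hkap1 : 1 ≤ kap := by
    rw [hkap]
    apply Real.one_le_exp
    positivity
  obtain ⟨K, hK⟩ : ∃ K, K = max 32 (1 / (2 * (1 / 2 - r) ^ 2)) := ⟨_, rfl⟩
  have hK32 : 32 ≤ K := by rw [hK]; exact le_max_left _ _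
  have hK2 : 1 / (2 * (1 / 2 - r) ^ 2) ≤ K := by rw [hK]; exact le_max_right _ _
  have hK4 : 1 / (4 * (1 / 2 - r) ^ 2) ≤ K := by
    refine le_trans ?_ hK2
    apply one_div_le_one_div_of_le (by positivity)
    nlinarith [sq_nonneg (1 / 2 - r)]
  obtain ⟨M1, hM1⟩ := exists_nat_gt K
  rw [← hkap] at hwin
  refine assemble_gen r kap c hr0 hr1.le hkap1 hwin ZS TS ZS_mono4 ZS_closed4 TS_mono4 TS_closed4
    ZS_one4 TS_half K (by linarith) M1 hM1 ?_ ?_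
  · intro M hM g hg hZ
    have hMR : (M1 : ℝ) ≤ M := by exact_mod_cast hM
    exact stepZ_win r K hr0 hr1 hK32 hK4 M (by linarith) g hg hZ
  · intro M hM zt sg _ hsg hZ hT
    have hMR : (M1 : ℝ) ≤ M := by exact_mod_cast hM
    have hM0 : (0 : ℝ) < M := by linarith
    have hM2 : 2 ≤ M := by
      have : (32 : ℝ) < M := by linarith
      have : 32 < M := by exact_mod_cast this
      omega
    have h := stepT_core r kap hr0 hr1 (by linarith) M hM2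
      (fun a ha => by
        rw [hkap]
        exact pH_le_pu_gen (by omega) hr0 hr1 ha.1 ha.2) zt sg hsg hZ
      (fun n hn => hT n hn.1 hn.2)
    refine TS_mono4 M _ _ h ?_
    have : (1 / (2 * (1 / 2 - r) ^ 2)) / (M : ℝ) ≤ K / (M : ℝ) :=
      div_le_div_of_nonneg_right hK2 hM0.le
    linarith

/-- mixing in `C (k + 1) ^ (gam + 1)` steps for every `1 < gam ≤ 2` -/
theorem thorp_gam (gam : ℝ) (hg1 : 1 < gam) (hg2 : gam ≤ 2) :
    ∃ C : ℝ, ∀ k t : ℕ, C * ((k : ℝ) + 1) ^ (gam + 1) ≤ t →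
      tvUnif (thorpPow (2 ^ k) t) ≤ 1 / 4 := by
  obtain ⟨j0, hj0⟩ := TS_harmonic ((1 + gam) / 2) (by linarith)
  exact Top.top_gen ((1 + gam) / 2) gam (by linarith) (by linarith) hg1 hg2
    (fun M _ => SDPI_bitChan M (1 / 2) (by norm_num) (TS_half M))
    ⟨j0, fun j hj => SDPI_bitChan (2 ^ j) _ (by positivity) (hj0 j hj)⟩

/-- **The Thorp shuffle of `2 ^ (k + 1)` cards mixes in `C_ε (k + 1) ^ (2 + ε)` steps.** -/
theorem thorp_eps (ε : ℝ) (hε : 0 < ε) :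
    ∃ C : ℝ, 0 < C ∧ ∀ k t : ℕ, C * ((k : ℝ) + 1) ^ (2 + ε) ≤ t →
      tvUnif (thorpPow (2 ^ k) t) ≤ 1 / 4 := by
  obtain ⟨C, hC⟩ := thorp_gam (1 + min ε 1) (by have := lt_min hε one_pos; linarith)
    (by have := min_le_right ε 1; linarith)
  refine ⟨max C 1, lt_of_lt_of_le one_pos (le_max_right _ _), fun k t ht => hC k t ?_⟩
  have hk1 : (1 : ℝ) ≤ (k : ℝ) + 1 := by
    have : (0 : ℝ) ≤ k := Nat.cast_nonneg k
    linarith
  have hpow : ((k : ℝ) + 1) ^ (1 + min ε 1 + 1) ≤ ((k : ℝ) + 1) ^ (2 + ε) := by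
    apply Real.rpow_le_rpow_of_exponent_le hk1
    have := min_le_left ε 1
    linarith
  have hp0 : 0 ≤ ((k : ℝ) + 1) ^ (1 + min ε 1 + 1) := by positivity
  calc C * ((k : ℝ) + 1) ^ (1 + min ε 1 + 1)
      ≤ max C 1 * ((k : ℝ) + 1) ^ (1 + min ε 1 + 1) :=
        mul_le_mul_of_nonneg_right (le_max_left _ _) hp0
    _ ≤ max C 1 * ((k : ℝ) + 1) ^ (2 + ε) :=
        mul_le_mul_of_nonneg_left hpow (le_trans zero_le_one (le_max_right _ _))
    _ ≤ t := ht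

end Vale.Agent.P162.P2
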