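import Vale.Agent.P162.KL.SizeLaws

/-!
# P162 : the ratio of the two size laws on a general window `[r M, (1 - r) M]`
-/

namespace Vale.Agent.P162

open Finset

theorem rHu_le_exp_low {M a : ℕ} (hM : 1 ≤ M) {r : ℝ} (hr0 : 0 < r) (hr1 : r < 1 / 2)
    (h1 : r * M ≤ a) (h2 : a ≤ M / 2) :
    rHu M a ≤ Real.exp ((1 - 2 * r) ^ 2 / (2 * r)) := by
  have hM0 : (0 : ℝ) < M := by exact_mod_cast (by omega : 0 < M)
  obtain ⟨dl, hdl⟩ : ∃ dl : ℝ, dl = (1 - 2 * r) / (r * M) := ⟨_, rfl⟩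
  have hrM : 0 < r * M := mul_pos hr0 hM0
  have hd0 : 0 ≤ dl := by
    rw [hdl]
    apply div_nonneg (by linarith) hrM.le
  have hdlM : dl * (r * M) = 1 - 2 * r := by
    rw [hdl]; field_simp
  have hstep : ∀ i : ℕ, a ≤ i → i < M / 2 → ((i : ℝ) + 1) * (2 * (M : ℝ) - 2 * i - 1)
        ≤ (1 + dl) * (((M : ℝ) - i) * (2 * (i : ℝ) + 1)) := by
    intro i hai hi
    have hi1 : (a : ℝ) ≤ i := by exact_mod_cast hai
    have hi2 : 2 * (i : ℝ) + 1 ≤ M := by
      have : 2 * i + 1 ≤ M := by omega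
      exact_mod_cast this
    have hri : r * M ≤ i := le_trans h1 hi1
    -- (M - i) ≥ M / 2, (2 i + 1) ≥ 2 r M
    have hA : (M : ℝ) / 2 ≤ (M : ℝ) - i := by linarith
    have hB : 2 * (r * M) ≤ 2 * (i : ℝ) + 1 := by linarith
    have hprod : (M : ℝ) / 2 * (2 * (r * M)) ≤ ((M : ℝ) - i) * (2 * (i : ℝ) + 1) :=
      mul_le_mul hA hB (by positivity) (by linarith)
    have h3 : dl * ((M : ℝ) / 2 * (2 * (r * M))) ≤ dl * (((M : ℝ) - i) * (2 * (i : ℝ) + 1)) :=
      mul_le_mul_of_nonneg_left hprod hd0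
    have h4 : dl * ((M : ℝ) / 2 * (2 * (r * M))) = (1 - 2 * r) * M := by
      calc dl * ((M : ℝ) / 2 * (2 * (r * M))) = (dl * (r * M)) * M := by ring
        _ = (1 - 2 * r) * M := by rw [hdlM]
    nlinarith
  have h5 := rHu_le_pow hM hd0 (M / 2 - a) a (by omega) hstep
  have h6 := one_add_pow_le_exp hd0 (M / 2 - a)
  refine h5.trans (h6.trans ?_)
  apply Real.exp_le_exp.mpr
  have hk : ((M / 2 - a : ℕ) : ℝ) ≤ (1 / 2 - r) * M := by
    rw [Nat.cast_sub h2]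
    have : ((M / 2 : ℕ) : ℝ) ≤ (M : ℝ) / 2 := by
      have := Nat.cast_div_le (α := ℝ) (m := M) (n := 2)
      simpa using this
    linarith
  calc ((M / 2 - a : ℕ) : ℝ) * dl ≤ ((1 / 2 - r) * M) * dl :=
        mul_le_mul_of_nonneg_right hk hd0
    _ = (1 - 2 * r) ^ 2 / (2 * r) := by
        rw [hdl]; field_simp

/-- on the window `[r M, (1 - r) M]` the hypergeometric size law is at most
`exp ((1 - 2 r)^2 / (2 r))` times the size law of the uniform even subset -/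
theorem pH_le_pu_gen {M a : ℕ} (hM : 1 ≤ M) {r : ℝ} (hr0 : 0 < r) (hr1 : r < 1 / 2)
    (h1 : r * M ≤ a) (h2 : (a : ℝ) ≤ (1 - r) * M) :
    pH M a ≤ Real.exp ((1 - 2 * r) ^ 2 / (2 * r)) * pu M a := by
  have hM0 : (0 : ℝ) < M := by exact_mod_cast (by omega : 0 < M)
  have haM : a ≤ M := by
    have : (a : ℝ) ≤ M := by nlinarith
    exact_mod_cast this
  rw [pH_eq_rHu_mul haM]
  apply mul_le_mul_of_nonneg_right _ (pu_nonneg M a)
  by_cases h : a ≤ M / 2
  · exact rHu_le_exp_low hM hr0 hr1 h1 h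
  · have hs := rHu_symm (M := M) (a := M - a) (by omega)
    have e : M - (M - a) = a := by omega
    rw [e] at hs
    rw [hs]
    apply rHu_le_exp_low hM hr0 hr1
    · rw [Nat.cast_sub haM]; linarith
    · omega

end Vale.Agent.P162
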