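import Vale.Agent.P162.P2.CondZT
import Vale.Agent.P162.P2.IndT
import Vale.Agent.P162.P2.WcKl
import Vale.Agent.P162.P2.WcChan
import Vale.Agent.P162.P2.TwoStage
import Vale.Agent.P162.P2.Super
import Vale.Agent.P162.KL.Mono
import Vale.Agent.P162.Eps.Ratio

/-!
# P162 (P2) : STEP T for a general window `[r M, (1 - r) M]`
-/

set_option linter.unusedSectionVars false

namespace Vale.Agent.P162.P2

open Finset Vale.Agent.P162 Vale.Agent.P162.KL

/-- the window -/
def WinR (r : ℝ) (M n : ℕ) : Prop := r * M ≤ n ∧ (n : ℝ) ≤ (1 - r) * M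

theorem WinR.le {r : ℝ} {M n : ℕ} (hr0 : 0 < r) (h : WinR r M n) : n ≤ M := by
  have h2 := h.2
  have hM0 : (0 : ℝ) ≤ M := Nat.cast_nonneg M
  have : (n : ℝ) ≤ M := by nlinarith
  exact_mod_cast this

theorem WinR.symm {r : ℝ} {M n : ℕ} (hr0 : 0 < r) (h : WinR r M n) : WinR r M (M - n) := by
  have hn := h.le hr0
  unfold WinR
  rw [Nat.cast_sub hn]
  exact ⟨by linarith [h.2], by linarith [h.1]⟩

/-- outside the window the size is far from the centre -/
theorem not_WinR_far {r : ℝ} {M n : ℕ} (h : ¬ WinR r M n) :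
    (1 / 2 - r) * (M : ℝ) < |(n : ℝ) - (M : ℝ) / 2| := by
  unfold WinR at h
  rw [not_and_or, not_le, not_le] at h
  rcases h with h | h
  · rw [lt_abs]; right; linarith
  · rw [lt_abs]; left; linarith

variable {S : Type} [Fintype S] [DecidableEq S]

theorem flipOut_flipOut (z : Finset S) (b : S → Bool) : flipOut z (flipOut z b) = b := by
  funext a
  unfold flipOut
  by_cases h : a ∈ z <;> simp [h]

theorem Tr_flipOut (σ : Mat S) (z : Finset S) (hz : Cl σ.1 z) (b : S → Bool) :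
    Tr S σ (flipOut z b) = Tr S σ b := by
  have hiff : ∀ a, σ.1 a ∈ z ↔ a ∈ z := by
    intro a
    constructor
    · intro h
      have := hz _ h
      rwa [σ.2.1] at this
    · intro h
      exact hz a h
  have key : (∀ a, flipOut z b (σ.1 a) = !flipOut z b a) ↔ (∀ a, b (σ.1 a) = !b a) := by
    constructor
    · intro h a
      have := h a
      unfold flipOut at this
      by_cases ha : a ∈ z
      · simpa [ha, (hiff a).2 ha] using this
      · have ha' : σ.1 a ∉ z := fun h' => ha ((hiff a).1 h')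
        simpa [ha, ha'] using this
    · intro h a
      unfold flipOut
      by_cases ha : a ∈ z
      · simp [ha, (hiff a).2 ha, h a]
      · have ha' : σ.1 a ∉ z := fun h' => ha ((hiff a).1 h')
        simp [ha, ha', h a]
  unfold Tr
  simp only [key]

theorem wH_pos {M k : ℕ} (hk : k ≤ 2 * M) : 0 < wH M k := by
  unfold wH
  apply div_pos (pH_pos (by omega))
  exact_mod_cast Nat.choose_pos hk

theorem KKT_isChan (M : ℕ) (hS : Fintype.card S = 2 * M) :
    IsChan (K12 (Wc S (wH M)) (KT2 S)) := by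
  have c1 := Wc_isChan M hS (wH M) (wH_nonneg M) (sum_choose_wH M)
  have c2 := Tr_isChan M hS
  intro σ
  refine ⟨fun zt => mul_nonneg ((c1 σ).1 _) ((c2 σ).1 _), ?_⟩
  unfold K12 KT2
  rw [Fintype.sum_prod_type]
  simp only []
  have : ∀ x : Ev S, ∑ y : S → Bool, Wc S (wH M) σ x * Tr S σ y = Wc S (wH M) σ x := by
    intro x
    rw [← Finset.mul_sum, (c2 σ).2, mul_one]
  rw [Finset.sum_congr rfl (fun x _ => this x), (c1 σ).2]

theorem KKT_marg1 (M : ℕ) (hS : Fintype.card S = 2 * M) (σ : Mat S) (b : S → Bool) :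
    ∑ zt ∈ univ.filter (fun zt : Ev S × (S → Bool) => zt.2 = b),
      K12 (Wc S (wH M)) (KT2 S) σ zt = Tr S σ b := by
  have c1 := Wc_isChan M hS (wH M) (wH_nonneg M) (sum_choose_wH M)
  rw [Finset.sum_filter, Fintype.sum_prod_type]
  unfold K12 KT2
  simp only []
  have : ∀ x : Ev S, ∑ y : S → Bool, (if y = b then Wc S (wH M) σ x * Tr S σ y else 0)
      = Wc S (wH M) σ x * Tr S σ b := by
    intro x
    rw [Finset.sum_ite_eq' univ b]
    simp
  rw [Finset.sum_congr rfl (fun x _ => this x), ← Finset.sum_mul, (c1 σ).2, one_mul]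

theorem KKT_marg2 (M : ℕ) (hS : Fintype.card S = 2 * M) (σ : Mat S) (b : S → Bool) :
    ∑ zt ∈ univ.filter (fun zt : Ev S × (S → Bool) => flipOut zt.1.1 zt.2 = b),
      K12 (Wc S (wH M)) (KT2 S) σ zt = Tr S σ b := by
  have c1 := Wc_isChan M hS (wH M) (wH_nonneg M) (sum_choose_wH M)
  rw [Finset.sum_filter, Fintype.sum_prod_type]
  unfold K12 KT2
  simp only []
  have : ∀ x : Ev S, ∑ y : S → Bool,
      (if flipOut x.1 y = b then Wc S (wH M) σ x * Tr S σ y else 0)
      = Wc S (wH M) σ x * Tr S σ b := by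
    intro x
    rw [Finset.sum_eq_single (flipOut x.1 b)]
    · rw [if_pos (flipOut_flipOut x.1 b)]
      by_cases hcl : Cl σ.1 x.1
      · rw [Tr_flipOut σ x.1 hcl b]
      · unfold Wc
        rw [if_neg hcl, zero_mul, zero_mul]
    · intro y _ hy
      rw [if_neg]
      intro h
      apply hy
      rw [← h, flipOut_flipOut]
    · intro h
      exact absurd (Finset.mem_univ _) h
  rw [Finset.sum_congr rfl (fun x _ => this x), ← Finset.sum_mul, (c1 σ).2, one_mul]

/-- STEP T, one step, general window. -/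
theorem stepT_core (r kap : ℝ) (hr0 : 0 < r) (hr1 : r < 1 / 2) (hkap0 : 0 ≤ kap) (M : ℕ)
    (hM : 2 ≤ M) (hkap : ∀ a : ℕ, WinR r M a → pH M a ≤ kap * pu M a)
    (zt sg : ℝ) (hsg : 0 ≤ sg) (hZ : ZS M zt) (hT : ∀ n : ℕ, WinR r M n → TS n sg) :
    TS M ((kap * zt + sg + (1 / (2 * (1 / 2 - r) ^ 2)) / M) / 2) := by
  intro S _ _ hS p hp
  classical
  have hM0 : (0 : ℝ) < M := by exact_mod_cast (by omega : 0 < M)
  have hdl : 0 < 1 / 2 - r := by linarith
  obtain ⟨D, hD⟩ : ∃ D, D = kl p (unif (Mat S)) := ⟨_, rfl⟩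
  have hD0 : 0 ≤ D := by rw [hD]; exact kl_unif_nonneg p hp
  have c1 := Wc_isChan M hS (wH M) (wH_nonneg M) (sum_choose_wH M)
  have c2 := Tr_isChan M hS
  obtain ⟨δ, hδ⟩ : ∃ δ, δ = ∑ n ∈ (Finset.range (M + 1)).filter (fun n => ¬ WinR r M (2 * n / 2)),
      ((2 * M).choose (2 * n) : ℝ) * wH M (2 * n) := ⟨_, rfl⟩
  -- two stage
  have h2 := two_stage (Wc S (wH M)) (KT2 S) c1 (fun _ a y => (c2 a).1 y)
    (fun _ a _ => (c2 a).2) (fun x : Ev S => WinR r M (x.1.card / 2)) δ sg hsg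
    (fun a => by
      rw [hδ]
      exact Wc_sum_filter hS (wH M) a (fun k => ¬ WinR r M (k / 2)))
    (fun x hx => by
      have hle : x.1.card ≤ 2 * M := by rw [← hS]; exact Finset.card_le_univ x.1
      exact condS_T M hS (wH M) x (wH_pos hle) sg (hT _ hx) (hT _ (hx.symm hr0)))
    p hp
  -- superadditivity
  have h1 := superadd (K12 (Wc S (wH M)) (KT2 S)) (KKT_isChan M hS) (Tr S) Prod.snd
    (fun zt => flipOut zt.1.1 zt.2) (KKT_marg1 M hS) (KKT_marg2 M hS)
    (fun b1 b2 => by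
      rw [push_Tr_unif M hS b1, push_Tr_unif M hS b2]
      exact ind_T M hS b1 b2) p hp
  -- the first stage against the uniform even closed set
  have hA := kl_Wc M hS (wH M) p
  have hU := kl_Wc M hS (wU (2 * M)) p
  have hZ' := hZ S hS p hp
  rw [← hD] at hZ' h2
  obtain ⟨AH, hAH⟩ : ∃ AH, AH = kl (push (Wc S (wH M)) p) (push (Wc S (wH M)) (unif (Mat S))) :=
    ⟨_, rfl⟩
  obtain ⟨AU, hAU⟩ : ∃ AU, AU = kl (push (Wc S (wU (2 * M))) p)
      (push (Wc S (wU (2 * M))) (unif (Mat S))) := ⟨_, rfl⟩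
  rw [← hAH] at hA h2
  rw [← hAU] at hU hZ'
  have hterm : ∀ a ∈ Finset.range (M + 1), wH M (2 * a) * Ek S p (2 * a) ≤
      kap * (wU (2 * M) (2 * a) * Ek S p (2 * a)) +
        (if ¬ WinR r M (2 * a / 2) then ((2 * M).choose (2 * a) : ℝ) * wH M (2 * a) else 0) * D := by
    intro a ha
    have ha' : a ≤ M := Nat.lt_succ_iff.1 (Finset.mem_range.1 ha)
    have hE := Ek_nonneg M hS p hp (2 * a)
    have e : 2 * a / 2 = a := by omega
    rw [e]
    have hch : (0 : ℝ) < ((2 * M).choose (2 * a) : ℝ) := by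
      exact_mod_cast Nat.choose_pos (by omega)
    by_cases hw : WinR r M a
    · rw [if_neg (not_not.2 hw), zero_mul, add_zero, ← mul_assoc]
      apply mul_le_mul_of_nonneg_right _ hE
      have key := hkap a hw
      rw [← choose_mul_wH ha', ← choose_mul_wU (by omega : 1 ≤ M) a] at key
      have : ((2 * M).choose (2 * a) : ℝ) * wH M (2 * a) ≤
          ((2 * M).choose (2 * a) : ℝ) * (kap * wU (2 * M) (2 * a)) := by
        calc _ ≤ _ := key
          _ = _ := by ring
      exact le_of_mul_le_mul_left this hch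
    · rw [if_pos hw]
      have h3 := Ek_le M hS p hp a ha'
      rw [← hD] at h3
      have h4 : wH M (2 * a) * Ek S p (2 * a) ≤ wH M (2 * a) * (((2 * M).choose (2 * a) : ℝ) * D) :=
        mul_le_mul_of_nonneg_left h3 (wH_nonneg M _)
      have h5 : 0 ≤ kap * (wU (2 * M) (2 * a) * Ek S p (2 * a)) :=
        mul_nonneg hkap0 (mul_nonneg (wU_nonneg _ _) hE)
      nlinarith
  have hAle : AH ≤ kap * AU + δ * D := by
    rw [hA, hU, hδ, Finset.mul_sum, Finset.sum_filter, Finset.sum_mul, ← Finset.sum_add_distrib]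
    exact Finset.sum_le_sum hterm
  have hAH0 : 0 ≤ AH := by
    rw [hA]
    exact Finset.sum_nonneg (fun a _ => mul_nonneg (wH_nonneg M _) (Ek_nonneg M hS p hp _))
  -- the tail
  have hδle : δ ≤ 1 / (4 * (1 / 2 - r) ^ 2 * (M : ℝ)) := by
    refine le_trans ?_ (pH_tail hM hdl)
    rw [hδ]
    calc ∑ n ∈ (Finset.range (M + 1)).filter (fun n => ¬ WinR r M (2 * n / 2)),
          ((2 * M).choose (2 * n) : ℝ) * wH M (2 * n)
        = ∑ n ∈ (Finset.range (M + 1)).filter (fun n => ¬ WinR r M (2 * n / 2)), pH M n := by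
          apply Finset.sum_congr rfl
          intro n hn
          exact choose_mul_wH (Nat.lt_succ_iff.1 (Finset.mem_range.1 (Finset.mem_filter.1 hn).1))
      _ ≤ _ := by
          apply Finset.sum_le_sum_of_subset_of_nonneg
          · intro n hn
            rw [Finset.mem_filter] at hn ⊢
            refine ⟨hn.1, ?_⟩
            have e : 2 * n / 2 = n := by omega
            rw [e] at hn
            exact not_WinR_far hn.2
          · intro n _ _
            exact pH_nonneg M n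
  have hδD : δ * D ≤ 1 / (4 * (1 / 2 - r) ^ 2 * (M : ℝ)) * D := mul_le_mul_of_nonneg_right hδle hD0
  have e2 : (1 / (2 * (1 / 2 - r) ^ 2)) / (M : ℝ) = 2 * (1 / (4 * (1 / 2 - r) ^ 2 * (M : ℝ))) := by
    field_simp
    ring
  rw [← hD, e2]
  have hkz : kap * AU ≤ kap * (zt * D) := mul_le_mul_of_nonneg_left hZ' hkap0
  nlinarith [mul_nonneg hsg hAH0]

/-- the two exactly independent copies give the constant `1/2` for every size -/
theorem TS_half (M : ℕ) : TS M (1 / 2) := by
  intro S _ _ hS p hp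
  have h1 := superadd (K12 (Wc S (wH M)) (KT2 S)) (KKT_isChan M hS) (Tr S) Prod.snd
    (fun zt => flipOut zt.1.1 zt.2) (KKT_marg1 M hS) (KKT_marg2 M hS)
    (fun b1 b2 => by
      rw [push_Tr_unif M hS b1, push_Tr_unif M hS b2]
      exact ind_T M hS b1 b2) p hp
  have h2 := SDPI_one (K12 (Wc S (wH M)) (KT2 S)) (KKT_isChan M hS) p hp
  linarith

/-- STEP T in the shape consumed by `wrap4` (window `[2M/5, 3M/5]`, `K = 50`) -/
theorem stepT_two_fifths (M : ℕ) (hM : 2 ≤ M) (zt sg : ℝ) (_hzt : 0 ≤ zt) (hsg : 0 ≤ sg)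
    (hZ : ZS M zt) (hT : ∀ n : ℕ, 2 * M ≤ 5 * n → 5 * n ≤ 3 * M → TS n sg) :
    TS M ((20 / 19 * zt + sg + 50 / M) / 2) := by
  have hwin : ∀ n : ℕ, WinR (2 / 5) M n → 2 * M ≤ 5 * n ∧ 5 * n ≤ 3 * M := by
    intro n h
    constructor
    · have : (2 : ℝ) * M ≤ 5 * n := by linarith [h.1]
      exact_mod_cast this
    · have : (5 : ℝ) * n ≤ 3 * M := by linarith [h.2]
      exact_mod_cast this
  have h := stepT_core (2 / 5) (20 / 19) (by norm_num) (by norm_num) (by norm_num) M hM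
    (fun a ha => pH_le_pu_two_fifths (by omega) (hwin a ha).1 (hwin a ha).2) zt sg hsg hZ
    (fun n hn => hT n (hwin n hn).1 (hwin n hn).2)
  have e : (1 / (2 * (1 / 2 - 2 / 5 : ℝ) ^ 2)) = 50 := by norm_num
  rw [e] at h
  exact h

end Vale.Agent.P162.P2
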