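import Vale.Agent.P162.P2.StepZ
import Vale.Agent.P162.Eps.StepT

/-!
# P162 (P2) : STEP Z for the window `[r M, (1 - r) M]`, in the shape of `assemble_gen`
-/

set_option linter.unusedSectionVars false

namespace Vale.Agent.P162.P2

open Finset Vale.Agent.P162 Vale.Agent.P162.KL

open Classical in
/-- tail of the size law of `nuw` outside the window -/
theorem wNu_tail_gen {M : ℕ} (hM : 2 ≤ M) {r : ℝ} (hr1 : r < 1 / 2) :
    ∑ n ∈ (range (M + 1)).filter (fun n : ℕ => ¬ WinR r M n),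
      ((2 * M).choose (2 * n) : ℝ) * wNu (2 * M) (2 * n) ≤ (1 / (4 * (1 / 2 - r) ^ 2)) / (M : ℝ) := by
  have hM0 : (0 : ℝ) < M := by exact_mod_cast (by omega : 0 < M)
  have hdl : 0 < 1 / 2 - r := by linarith
  have h1 : ∑ n ∈ (range (M + 1)).filter (fun n : ℕ => ¬ WinR r M n),
      ((2 * M).choose (2 * n) : ℝ) * wNu (2 * M) (2 * n) ≤
      ∑ n ∈ (range (M + 1)).filter (fun n : ℕ => ¬ WinR r M n), 2 * pu M n := by
    apply Finset.sum_le_sum
    intro n _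
    rw [← choose_mul_wU (by omega) n]
    have := wNu_le (M := M) (by omega) (2 * n)
    have hc : (0 : ℝ) ≤ ((2 * M).choose (2 * n) : ℝ) := by positivity
    nlinarith
  refine le_trans h1 ?_
  rw [← Finset.mul_sum]
  have h2 : ∑ n ∈ (range (M + 1)).filter (fun n : ℕ => ¬ WinR r M n), pu M n ≤
      1 / (8 * (1 / 2 - r) ^ 2 * (M : ℝ)) := by
    refine le_trans ?_ (pu_tail hM hdl)
    apply Finset.sum_le_sum_of_subset_of_nonneg
    · intro n hn
      rw [Finset.mem_filter] at hn ⊢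
      exact ⟨hn.1, not_WinR_far hn.2⟩
    · intro n _ _
      exact pu_nonneg M n
  calc 2 * ∑ n ∈ (range (M + 1)).filter (fun n : ℕ => ¬ WinR r M n), pu M n
      ≤ 2 * (1 / (8 * (1 / 2 - r) ^ 2 * (M : ℝ))) := by linarith
    _ = _ := by field_simp; ring

/-- comparison of the constants -/
theorem stepZ_const_gen (K : ℝ) (M : ℕ) (hK32 : 32 ≤ K) (hKM : K < M) (g δ : ℝ) (hg : 0 ≤ g)
    (hδ0 : 0 ≤ δ) (hδ : δ ≤ K / M) :
    (1 + 4 / (2 : ℝ) ^ (2 * M)) * ((g + δ) / (1 - 32 / (M : ℝ) + g)) ≤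
      (1 + K / (M : ℝ)) * (g + K / (M : ℝ)) / (1 - K / (M : ℝ) + g) := by
  have hM0 : (0 : ℝ) < M := by linarith
  have hK1 : K / (M : ℝ) < 1 := by rw [div_lt_one hM0]; exact hKM
  have h32 : 32 / (M : ℝ) ≤ K / (M : ℝ) := div_le_div_of_nonneg_right hK32 hM0.le
  have hden1 : 0 < 1 - K / (M : ℝ) + g := by linarith
  have hden2 : 0 < 1 - 32 / (M : ℝ) + g := by linarith
  have h4 : 4 / (2 : ℝ) ^ (2 * M) ≤ K / (M : ℝ) := by
    have hpow : (M : ℝ) ≤ (2 : ℝ) ^ (2 * M) := by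
      have h1 : M < 2 ^ M := Nat.lt_two_pow_self
      have h2 : 2 ^ M ≤ 2 ^ (2 * M) := Nat.pow_le_pow_right (by norm_num) (by omega)
      have : M ≤ 2 ^ (2 * M) := by omega
      exact_mod_cast this
    rw [div_le_div_iff₀ (by positivity) hM0]
    nlinarith
  have hA : (g + δ) / (1 - 32 / (M : ℝ) + g) ≤ (g + K / (M : ℝ)) / (1 - K / (M : ℝ) + g) := by
    apply div_le_div₀ (by positivity) (by linarith) hden1 (by linarith)
  have hA0 : 0 ≤ (g + δ) / (1 - 32 / (M : ℝ) + g) := by positivity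
  calc (1 + 4 / (2 : ℝ) ^ (2 * M)) * ((g + δ) / (1 - 32 / (M : ℝ) + g))
      ≤ (1 + K / (M : ℝ)) * ((g + K / (M : ℝ)) / (1 - K / (M : ℝ) + g)) := by
        apply mul_le_mul (by linarith) hA hA0 (by positivity)
    _ = _ := by ring

/-- STEP Z for the window `[r M, (1 - r) M]` -/
theorem stepZ_win (r K : ℝ) (hr0 : 0 < r) (hr1 : r < 1 / 2) (hK32 : 32 ≤ K)
    (hKr : 1 / (4 * (1 / 2 - r) ^ 2) ≤ K) (M : ℕ) (hKM : K < M) (g : ℝ) (hg : 0 ≤ g)
    (hZ : ∀ n : ℕ, r * M ≤ n → (n : ℝ) ≤ (1 - r) * M → ZS n g) :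
    ZS M ((1 + K / (M : ℝ)) * (g + K / (M : ℝ)) / (1 - K / (M : ℝ) + g)) := by
  classical
  have hM33 : 33 ≤ M := by
    have : (32 : ℝ) < M := by linarith
    have : 32 < M := by exact_mod_cast this
    omega
  have hM0 : (0 : ℝ) < M := by linarith
  have hdl : 0 < 1 / 2 - r := by linarith
  have h := stepZ_gen M hM33 (fun n => WinR r M n) g ((1 / (4 * (1 / 2 - r) ^ 2)) / (M : ℝ)) hg
    (fun n _ hw => ⟨hZ n hw.1 hw.2, hZ (M - n) (hw.symm hr0).1 (hw.symm hr0).2⟩)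
    (by convert wNu_tail_gen (M := M) (by omega) hr1)
  intro S _ _ hS p hp
  refine (h S hS p hp).trans ?_
  exact mul_le_mul_of_nonneg_right
    (stepZ_const_gen K M hK32 hKM g _ hg (by positivity)
      (div_le_div_of_nonneg_right hKr hM0.le)) (KL.kl_unif_nonneg p hp)

end Vale.Agent.P162.P2
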